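import Vale.Agent.Lib.P162A.Tube

/-! The passage through the scale of the largest power of two dividing the size (one sided steps),
the passage to the whole set of positions at the end, and the block theorem. -/

namespace Vale.Agent.Lib.P162

open Equiv NormedSpace

set_option linter.unusedSectionVars false

variable {E : Type*} [NormedAddCommGroup E] [InnerProductSpace ℝ E]
variable {m : ℕ}

/-- The half of a multiple of `A`, moved by `m` when needed to be a multiple of `A` again. -/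
def halfUp (m A y : ℕ) : ℕ := if A ∣ y / 2 then y / 2 else y / 2 + m

theorem halfUp_cases (A y : ℕ) : halfUp m A y = y / 2 ∨ halfUp m A y = y / 2 + m := by
  unfold halfUp
  split_ifs
  · exact Or.inl rfl
  · exact Or.inr rfl

theorem halfUp_dvd {A h b y : ℕ} (hA : 2 * h = A) (hb : Odd b) (hm : m = h * b) (hy : A ∣ y) :
    A ∣ halfUp m A y := by
  unfold halfUp
  split_ifs with h1
  · exact h1
  · obtain ⟨t, rfl⟩ := hy
    subst hA
    have e : 2 * h * t / 2 = h * t := by
      rw [mul_assoc, Nat.mul_div_cancel_left _ (by norm_num)]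
    rw [e] at h1 ⊢
    have ht : Odd t := by
      rcases Nat.even_or_odd t with ⟨s, hs⟩ | ht
      · exfalso
        apply h1
        exact ⟨s, by rw [hs]; ring⟩
      · exact ht
    obtain ⟨w, hw⟩ := ht.add_odd hb
    refine ⟨w, ?_⟩
    rw [hm]
    calc h * t + h * b = h * (t + b) := by ring
      _ = _ := by rw [hw]; ring

theorem wSet_halfUp {A y L : ℕ} (hy : y % 2 = 0) (hfit : y + 2 * L ≤ 2 * m) :
    wSet (ivl m (halfUp m A y) L) = ivl m y (2 * L) := by
  have h1 : y / 2 + L ≤ m := by omega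
  have h2 : 2 * (y / 2) = y := by omega
  rcases halfUp_cases (m := m) A y with h | h
  · rw [h, wSet_ivl_low h1, h2]
  · rw [h, wSet_ivl_up h1, h2]

theorem disjoint_of_wSet {S T : Finset (Fin (2 * m))} (h : Disjoint (wSet S) (wSet T)) :
    Disjoint S T := by
  rw [Finset.disjoint_left] at h ⊢
  intro x hx hx2
  have h1 : pShuf m x ∈ wSet S := by
    rw [mem_wSet]
    left
    simpa using hx
  have h2 : pShuf m x ∈ wSet T := by
    rw [mem_wSet]
    left
    simpa using hx2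
  exact h h1 h2

section steps

variable [CompleteSpace E] [FiniteDimensional ℝ E] {π : Perm (Fin (2 * m)) →* (E →L[ℝ] E)}

theorem Maj.mono_set (hπ : IsOrth π) {R : E →L[ℝ] E} {S T : Finset (Fin (2 * m))} {κ κ' : ℝ}
    (hκ' : 0 ≤ κ') (hκ : κ' ≤ κ) (hST : T ⊆ S) (h : Maj R (κ • LS π S)) : Maj R (κ' • LS π T) :=
  fun w => (h w).trans (inner_exp_LS_mono hπ hST hκ' hκ w)

/-- The numbers in the one sided step. -/
theorem cover_numbers {κ L c : ℝ} (hκ0 : 0 ≤ κ) (hL : 1 ≤ L) (hκ : κ * L ≤ 1 / 1220)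
    (hc : c ≤ L) : κ / 5 ≤ κ / 4 - κ ^ 2 - 60 * κ ^ 2 * c := by
  have h1 : κ ≤ κ * L := by nlinarith
  have h2 : κ * c ≤ κ * L := mul_le_mul_of_nonneg_left hc hκ0
  have h3 : κ * (κ + 60 * (κ * c)) ≤ κ * (1 / 20) := by
    apply mul_le_mul_of_nonneg_left _ hκ0
    linarith
  nlinarith

/-- A one sided step on a family of intervals. -/
theorem cover_ivl (hπ : IsOrth π) {R : E →L[ℝ] E} {ι : Type*} [DecidableEq ι] (s : Finset ι)
    (y : ι → ℕ) {A L : ℕ} (hA2 : 2 ∣ A) (hdvd : ∀ i ∈ s, A ∣ y i)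
    (hfit : ∀ i ∈ s, y i + 2 * L ≤ 2 * m) (hL : 1 ≤ L) (hLm : L ≤ m)
    (hdisj : ∀ i ∈ s, ∀ j ∈ s, i ≠ j → Disjoint (ivl m (y i) (2 * L)) (ivl m (y j) (2 * L)))
    {κ : ℝ} (hκ0 : 0 ≤ κ) (hκ : κ * (L : ℝ) ≤ 1 / 1220)
    (hM : Maj R (∑ i ∈ s, κ • LS (conjRep (pShuf m) π) (ivl m (halfUp m A (y i)) L))) :
    Maj (R * tAvg m π) (∑ i ∈ s, (κ / 5) • LS π (ivl m (y i) (2 * L))) := by
  have hev : ∀ i ∈ s, y i % 2 = 0 := fun i hi => by
    have := hA2.trans (hdvd i hi)
    omega
  have hw : ∀ i ∈ s, wSet (ivl m (halfUp m A (y i)) L) = ivl m (y i) (2 * L) :=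
    fun i hi => wSet_halfUp (hev i hi) (hfit i hi)
  have hL' : (1 : ℝ) ≤ (L : ℝ) := by exact_mod_cast hL
  have hcard : ∀ i, (((ivl m (halfUp m A (y i)) L).card : ℕ) : ℝ) ≤ (L : ℝ) := fun i => by
    exact_mod_cast card_ivl_le _ _
  have h1 := cover_step hπ (R := R) s (fun i => ivl m (halfUp m A (y i)) L) (κ := κ) (κ' := κ / 5)
    hκ0 (by positivity) (fun i _ => noConf_ivl hLm)
    (by
      intro i hi j hj hij
      rw [hw i hi, hw j hj]
      exact hdisj i hi j hj hij)
    (by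
      intro i _
      refine (mul_le_mul_of_nonneg_left (hcard i) hκ0).trans ?_
      linarith)
    (by
      intro i _
      exact cover_numbers hκ0 hL' hκ (hcard i))
    hM
  have h2 : (∑ i ∈ s, (κ / 5) • LS π (wSet (ivl m (halfUp m A (y i)) L)))
      = ∑ i ∈ s, (κ / 5) • LS π (ivl m (y i) (2 * L)) :=
    Finset.sum_congr rfl (fun i hi => by rw [hw i hi])
  rw [← h2]
  exact h1

/-- A one sided step for one set. -/
theorem cover_single (hπ : IsOrth π) {R : E →L[ℝ] E} {S : Finset (Fin (2 * m))} {L : ℝ} {κ : ℝ}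
    (hκ0 : 0 ≤ κ) (hconf : NoConf S) (hL : 1 ≤ L) (hcard : (S.card : ℝ) ≤ L) (hκ : κ * L ≤ 1 / 1220)
    (hM : Maj R (κ • LS (conjRep (pShuf m) π) S)) :
    Maj (R * tAvg m π) ((κ / 5) • LS π (wSet S)) := by
  have h1 := cover_step hπ (R := R) ({()} : Finset Unit) (fun _ => S) (κ := κ) (κ' := κ / 5)
    hκ0 (by positivity) (fun _ _ => hconf)
    (by
      intro i hi j hj hij
      exact absurd (Subsingleton.elim i j) hij)
    (by
      intro i _
      refine (mul_le_mul_of_nonneg_left hcard hκ0).trans ?_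
      linarith)
    (by
      intro i _
      exact cover_numbers hκ0 hL hκ hcard)
    (by simpa using hM)
  simpa using h1

theorem wSet_window {v : ℕ} (hv : v ≤ m) : wSet (ivl m v m) = Finset.univ := by
  ext y
  simp only [Finset.mem_univ, iff_true]
  rw [mem_wSet, mem_ivl, mem_ivl, pShuf_inv_val, pShuf_inv_val]
  have hlt := y.isLt
  by_cases hy : y.val % 2 = 0
  · have h1 : ¬ (y.val + 1) % 2 = 0 := by omega
    have e : (sigF y).val = y.val + 1 := by rw [sigF_val, if_pos hy]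
    rw [e, if_pos hy, if_neg h1]
    have h2 : (y.val + 1) / 2 = y.val / 2 := by omega
    rw [h2]
    omega
  · have h1 : (y.val - 1) % 2 = 0 := by omega
    have e : (sigF y).val = y.val - 1 := by rw [sigF_val, if_neg hy]
    rw [e, if_neg hy, if_pos h1]
    have h2 : (y.val - 1) / 2 = y.val / 2 := by omega
    rw [h2]
    omega

/-- From an interval of an eighth of the positions to all positions in three steps. -/
theorem stage_D (hπ : IsOrth π) (hm : 0 < m) {R : E →L[ℝ] E} {w : ℕ} {κ : ℝ} (hw : w ≤ m / 4)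
    (hκ0 : 0 ≤ κ) (hκ : κ * (m : ℝ) ≤ 1 / 1220)
    (hM : Maj R (κ • LS (conjRep (pShuf m) (conjRep (pShuf m) (conjRep (pShuf m) π)))
      (ivl m w ((m + 3) / 4)))) :
    Maj (R * tAvg m (conjRep (pShuf m) (conjRep (pShuf m) π)) * tAvg m (conjRep (pShuf m) π) * tAvg m π)
      ((κ / 125) • LS π Finset.univ) := by
  have hπ1 := isOrth_conjRep' (pShuf m) hπ
  have hπ2 := isOrth_conjRep' (pShuf m) hπ1
  have hm' : (1 : ℝ) ≤ (m : ℝ) := by exact_mod_cast hm
  have hcard : ∀ u L, L ≤ m → (((ivl m u L).card : ℕ) : ℝ) ≤ (m : ℝ) := by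
    intro u L hL
    have := (card_ivl_le (m := m) u L).trans hL
    exact_mod_cast this
  have h1 := cover_single hπ2 (S := ivl m w ((m + 3) / 4)) (L := (m : ℝ)) hκ0
    (noConf_ivl (by omega)) hm' (hcard _ _ (by omega)) hκ hM
  rw [wSet_ivl_low (by omega)] at h1
  have h2 : Maj (R * tAvg m (conjRep (pShuf m) (conjRep (pShuf m) π)))
      ((κ / 5) • LS (conjRep (pShuf m) (conjRep (pShuf m) π)) (ivl m (2 * w) ((m + 1) / 2))) := by
    refine Maj.mono_set hπ2 (by positivity) le_rfl ?_ h1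
    intro x hx
    rw [mem_ivl] at hx ⊢
    omega
  have h3 := cover_single hπ1 (S := ivl m (2 * w) ((m + 1) / 2)) (L := (m : ℝ)) (κ := κ / 5)
    (by positivity) (noConf_ivl (by omega)) hm' (hcard _ _ (by omega))
    (by nlinarith) h2
  rw [wSet_ivl_low (by omega)] at h3
  have h4 : Maj (R * tAvg m (conjRep (pShuf m) (conjRep (pShuf m) π)) * tAvg m (conjRep (pShuf m) π))
      ((κ / 5 / 5) • LS (conjRep (pShuf m) π) (ivl m (4 * w) m)) := by
    refine Maj.mono_set hπ1 (by positivity) le_rfl ?_ h3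
    intro x hx
    rw [mem_ivl] at hx ⊢
    omega
  have h5 := cover_single hπ (S := ivl m (4 * w) m) (L := (m : ℝ)) (κ := κ / 5 / 5)
    (by positivity) (noConf_ivl le_rfl) hm' (hcard _ _ le_rfl)
    (by nlinarith) h4
  rw [wSet_window (by omega)] at h5
  have e : κ / 5 / 5 / 5 = κ / 125 := by ring
  rw [e] at h5
  exact h5

/-- From cubes to thick intervals: two one sided steps. -/
theorem stage_B {a b h : ℕ} (hm : 0 < m) (ha : 2 ^ a = 2 * h) (hb : Odd b) (hmb : m = h * b)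
    (h2A : 2 * 2 ^ a ≤ m) {c : ℝ} (hc0 : 0 ≤ c) (hc : c ≤ 1 / 2440) {ι : Type*} [DecidableEq ι]
    (s : Finset ι) (y : ι → ℕ) (hdvd : ∀ i ∈ s, 2 ^ a ∣ y i)
    (hfit : ∀ i ∈ s, y i + 2 * (2 * 2 ^ a) ≤ 2 * m)
    (hdisj : ∀ i ∈ s, ∀ j ∈ s, i ≠ j →
      Disjoint (ivl m (y i) (2 * (2 * 2 ^ a))) (ivl m (y j) (2 * (2 * 2 ^ a))))
    (hπ : IsOrth π) :
    Maj (Net m (a + 2) π) (∑ i ∈ s, (kapFr c a / 5 / 5) • LS π (ivl m (y i) (2 * (2 * 2 ^ a)))) := by
  set A : ℕ := 2 ^ a with hA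
  have hApos : 0 < A := by positivity
  have hA2 : 2 ∣ A := ⟨h, ha⟩
  have hπ1 := isOrth_conjRep' (pShuf m) hπ
  have hπ2 := isOrth_conjRep' (pShuf m) hπ1
  set z : ι → ℕ := fun i => halfUp m A (y i) with hz
  set z' : ι → ℕ := fun i => halfUp m A (z i) with hz'
  have hzd : ∀ i ∈ s, A ∣ z i := fun i hi => halfUp_dvd ha.symm hb hmb (hdvd i hi)
  have hz'd : ∀ i ∈ s, A ∣ z' i := fun i hi => halfUp_dvd ha.symm hb hmb (hzd i hi)
  have hzfit : ∀ i ∈ s, z i + 2 * A ≤ 2 * m := by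
    intro i hi
    have h1 := hfit i hi
    rcases halfUp_cases (m := m) A (y i) with h2 | h2 <;> simp only [hz, h2] <;> omega
  have hz'fit : ∀ i ∈ s, z' i + A ≤ 2 * m := by
    intro i hi
    have h1 := hzfit i hi
    rcases halfUp_cases (m := m) A (z i) with h2 | h2 <;> simp only [hz', h2] <;> omega
  have hevy : ∀ i ∈ s, y i % 2 = 0 := fun i hi => by
    have := hA2.trans (hdvd i hi)
    omega
  have hevz : ∀ i ∈ s, z i % 2 = 0 := fun i hi => by
    have := hA2.trans (hzd i hi)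
    omega
  have hdz : ∀ i ∈ s, ∀ j ∈ s, i ≠ j → Disjoint (ivl m (z i) (2 * A)) (ivl m (z j) (2 * A)) := by
    intro i hi j hj hij
    apply disjoint_of_wSet
    rw [wSet_halfUp (hevy i hi) (hfit i hi), wSet_halfUp (hevy j hj) (hfit j hj)]
    exact hdisj i hi j hj hij
  have hdz' : ∀ i ∈ s, ∀ j ∈ s, i ≠ j → Disjoint (ivl m (z' i) A) (ivl m (z' j) A) := by
    intro i hi j hj hij
    apply disjoint_of_wSet
    have e : 2 * A = 2 * A := rfl
    rw [wSet_halfUp (L := A) (hevz i hi) (hzfit i hi), wSet_halfUp (L := A) (hevz j hj) (hzfit j hj)]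
    exact hdz i hi j hj hij
  -- the cubes
  have hmA : 2 * m = A * b := by
    rw [hmb, ha]; ring
  have hbdiv : 2 * m / 2 ^ a = b := by
    rw [← hA, hmA, Nat.mul_div_cancel_left _ hApos]
  have hS := stage_A (E := E) hm ⟨b, hmA⟩ hc0 (by linarith) a le_rfl
    (conjRep (pShuf m) (conjRep (pShuf m) π)) (isOrth_conjRep' _ hπ1)
  rw [hbdiv] at hS
  set k : ι → ℕ := fun i => z' i / A with hk
  have hkA : ∀ i ∈ s, k i * A = z' i := fun i hi => Nat.div_mul_cancel (hz'd i hi)
  have hkb : ∀ i ∈ s, k i < b := by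
    intro i hi
    have h1 := hz'fit i hi
    rw [hmA, ← hkA i hi] at h1
    have h2 : (k i + 1) * A ≤ b * A := by
      calc (k i + 1) * A = k i * A + A := by ring
        _ ≤ A * b := h1
        _ = b * A := by ring
    have h3 := Nat.le_of_mul_le_mul_right h2 hApos
    omega
  have hne : ∀ i ∈ s, ∃ x : Fin (2 * m), x ∈ ivl m (z' i) A := by
    intro i hi
    have h1 := hz'fit i hi
    exact ⟨⟨z' i, by omega⟩, mem_ivl.mpr ⟨le_rfl, by simp only; omega⟩⟩
  have hinj : Set.InjOn k (s : Set ι) := by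
    intro i hi j hj hij
    by_contra hne2
    have h1 := hdz' i hi j hj hne2
    obtain ⟨x, hx⟩ := hne i hi
    have e : z' i = z' j := by
      rw [← hkA i hi, ← hkA j hj, hij]
    rw [e] at h1 hx
    exact Finset.disjoint_left.mp h1 hx hx
  have hcubes : ∀ i ∈ Finset.range b, ∀ j ∈ Finset.range b, i ≠ j →
      Disjoint (ivl m (i * A) A) (ivl m (j * A) A) := by
    intro i _ j _ hij
    rw [Finset.disjoint_left]
    intro x hx hx2
    rw [mem_ivl] at hx hx2
    have e1 : x.val / A = i := by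
      apply Nat.div_eq_of_lt_le
      · linarith [hx.1]
      · have : (i + 1) * A = i * A + A := by ring
        omega
    have e2 : x.val / A = j := by
      apply Nat.div_eq_of_lt_le
      · linarith [hx2.1]
      · have : (j + 1) * A = j * A + A := by ring
        omega
    exact hij (e1.symm.trans e2)
  have hS2 := Maj.subfamily (isOrth_conjRep' _ hπ1) (s := Finset.range b)
    (K := fun k => ivl m (k * A) A) (kapFr_nonneg hc0 a) k (s' := s) hinj
    (fun i hi => Finset.mem_range.mpr (hkb i hi)) hcubes hS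
  have hS3 : Maj (Net m a (conjRep (pShuf m) (conjRep (pShuf m) π)))
      (∑ i ∈ s, kapFr c a • LS (conjRep (pShuf m) (conjRep (pShuf m) π)) (ivl m (z' i) A)) := by
    have e : (∑ i ∈ s, kapFr c a • LS (conjRep (pShuf m) (conjRep (pShuf m) π)) (ivl m (z' i) A))
        = ∑ i ∈ s, kapFr c a • LS (conjRep (pShuf m) (conjRep (pShuf m) π)) (ivl m (k i * A) A) :=
      Finset.sum_congr rfl (fun i hi => by rw [hkA i hi])
    rw [e]
    exact hS2
  have hsz := kap_size hc0 a
  have hAr : ((A : ℕ) : ℝ) = (2 : ℝ) ^ a := by rw [hA]; push_cast; rfl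
  have hA1 : (1 : ℝ) ≤ (A : ℝ) := by exact_mod_cast hApos
  have hk0 := kapFr_nonneg hc0 a
  have h1 := cover_ivl hπ1 (R := Net m a (conjRep (pShuf m) (conjRep (pShuf m) π))) s z (A := A)
    (L := A) hA2 hzd hzfit hApos (by omega) hdz hk0
    (by
      rw [hAr]
      linarith)
    hS3
  have h2 := cover_ivl hπ (R := Net m a (conjRep (pShuf m) (conjRep (pShuf m) π))
      * tAvg m (conjRep (pShuf m) π)) s y (A := A) (L := 2 * A) hA2 hdvd hfit (by omega)
    h2A hdisj (κ := kapFr c a / 5) (by positivity)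
    (by
      push_cast
      rw [hAr]
      nlinarith)
    h1
  have e3 : Net m (a + 2) π = Net m a (conjRep (pShuf m) (conjRep (pShuf m) π))
      * tAvg m (conjRep (pShuf m) π) * tAvg m π := rfl
  rw [e3]
  exact h2

end steps

end Vale.Agent.Lib.P162
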