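import Vale.Agent.Lib.P162A.Blocks

/-! The merge and cover inequalities for a matching between subsets of the positions, obtained by
restricting the representation to the permutations of the two matched sets. -/

namespace Vale.Agent.Lib.P162

open Equiv NormedSpace

set_option linter.unusedSectionVars false

variable {E : Type*} [NormedAddCommGroup E] [InnerProductSpace ℝ E]
variable {P : Type*} [DecidableEq P]

section embed

variable {α : Type*} [DecidableEq α]

theorem viaHom_swap (ι : α ↪ P) (a b : α) :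
    Equiv.Perm.viaEmbeddingHom ι (swap a b) = swap (ι a) (ι b) := by
  ext1 x
  rw [Equiv.Perm.viaEmbeddingHom_apply]
  by_cases hx : x ∈ Set.range ι
  · obtain ⟨c, rfl⟩ := hx
    rw [Equiv.Perm.viaEmbedding_apply, Function.Embedding.swap_apply]
  · rw [Equiv.Perm.viaEmbedding_apply_of_notMem _ _ _ hx]
    symm
    apply Equiv.swap_apply_of_ne_of_ne
    · rintro rfl
      exact hx ⟨a, rfl⟩
    · rintro rfl
      exact hx ⟨b, rfl⟩

end embed

section matching

variable (X : Finset P) (φ : P → P)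

/-- The two matched copies of `X` inside the positions. -/
def embF (hinj : Set.InjOn φ X) (hd : Disjoint X (X.image φ)) : Bool × X ↪ P where
  toFun p := if p.1 then φ p.2 else p.2
  inj' := by
    rintro ⟨s, a⟩ ⟨s', b⟩ h
    have ha : (a : P) ∈ X := a.2
    have hb : (b : P) ∈ X := b.2
    cases s <;> cases s' <;> simp only [Bool.false_eq_true, if_true, if_false] at h
    · have : a = b := Subtype.ext h
      simp [this]
    · exact absurd (h ▸ Finset.mem_image_of_mem φ hb)
        (Finset.disjoint_left.mp hd ha)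
    · exact absurd (h.symm ▸ Finset.mem_image_of_mem φ ha)
        (Finset.disjoint_left.mp hd hb)
    · have : a = b := Subtype.ext (hinj ha hb h)
      simp [this]

variable {X φ} {hinj : Set.InjOn φ X} {hd : Disjoint X (X.image φ)}

theorem embF_false (a : X) : embF X φ hinj hd (false, a) = a := rfl

theorem embF_true (a : X) : embF X φ hinj hd (true, a) = φ a := rfl

theorem map_embF : (Finset.univ : Finset (Bool × X)).map (embF X φ hinj hd) = X ∪ X.image φ := by
  ext x
  simp only [Finset.mem_map, Finset.mem_univ, true_and, Finset.mem_union, Finset.mem_image]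
  constructor
  · rintro ⟨⟨s, a⟩, rfl⟩
    cases s
    · exact Or.inl a.2
    · exact Or.inr ⟨a, a.2, rfl⟩
  · rintro (h | ⟨a, ha, rfl⟩)
    · exact ⟨(false, ⟨x, h⟩), rfl⟩
    · exact ⟨(true, ⟨a, ha⟩), rfl⟩

variable (π : Perm P →* (E →L[ℝ] E))

/-- The restricted representation. -/
noncomputable def resRep (hinj : Set.InjOn φ X) (hd : Disjoint X (X.image φ)) :
    Perm (Bool × X) →* (E →L[ℝ] E) :=
  π.comp (Equiv.Perm.viaEmbeddingHom (embF X φ hinj hd))

theorem resRep_swap (p q : Bool × X) :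
    resRep π hinj hd (swap p q) = π (swap (embF X φ hinj hd p) (embF X φ hinj hd q)) := by
  simp only [resRep, MonoidHom.comp_apply, viaHom_swap]

theorem isOrth_resRep {π : Perm P →* (E →L[ℝ] E)} (hπ : IsOrth π) : IsOrth (resRep π hinj hd) :=
  fun _ x y => hπ _ x y

theorem LS_res_false :
    LS ((resRep π hinj hd).comp (side false)) Finset.univ = LS π X := by
  rw [LS_side]
  simp only [resRep_swap, embF_false]
  unfold LS
  rw [← Finset.sum_coe_sort X]
  refine Finset.sum_congr rfl (fun a _ => ?_)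
  rw [← Finset.sum_coe_sort X]

theorem LS_res_true :
    LS ((resRep π hinj hd).comp (side true)) Finset.univ = LS π (X.image φ) := by
  rw [LS_side]
  simp only [resRep_swap, embF_true]
  unfold LS
  rw [Finset.sum_image hinj, ← Finset.sum_coe_sort X]
  refine Finset.sum_congr rfl (fun a _ => ?_)
  rw [Finset.sum_image hinj, ← Finset.sum_coe_sort X]

theorem LS_res_total :
    LS (resRep π hinj hd) Finset.univ = LS π (X ∪ X.image φ) := by
  rw [← map_embF (hinj := hinj) (hd := hd)]
  unfold LS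
  rw [Finset.sum_map]
  refine Finset.sum_congr rfl (fun p _ => ?_)
  rw [Finset.sum_map]
  refine Finset.sum_congr rfl (fun q _ => ?_)
  rw [resRep_swap]

theorem Lhat_res_side (s : Bool) :
    Lhat ((resRep π hinj hd).comp (side s))
      = ((X.card : ℝ)⁻¹) • LS ((resRep π hinj hd).comp (side s)) Finset.univ := by
  unfold Lhat
  rw [Fintype.card_coe]

theorem Lhat_res :
    Lhat (resRep π hinj hd) = ((2 * (X.card : ℝ))⁻¹) • LS π (X ∪ X.image φ) := by
  unfold Lhat
  rw [LS_res_total, Fintype.card_prod, Fintype.card_bool, Fintype.card_coe]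
  push_cast
  rfl

theorem res_mem_sector {z : E} (hz : ∀ x ∈ X, π (swap x (φ x)) z = z) :
    z ∈ sector (resRep π hinj hd) ∅ := by
  intro y
  simp only [Finset.notMem_empty, if_false]
  unfold sigma
  rw [resRep_swap, embF_false, embF_true]
  exact hz y y.2

end matching

section ineq

variable [CompleteSpace E] {π : Perm P →* (E →L[ℝ] E)} {X : Finset P} {φ : P → P}

/-- The two-sided merge for a matching between subsets. -/
theorem merge_two (hπ : IsOrth π) (hinj : Set.InjOn φ X) (hd : Disjoint X (X.image φ)) {z : E}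
    (hz : ∀ x ∈ X, π (swap x (φ x)) z = z) {κ : ℝ} (hκ0 : 0 ≤ κ)
    (hκ : κ * (X.card : ℝ) ≤ 1 / 20) :
    inner ℝ z (exp (-(κ • LS π X + κ • LS π (X.image φ))) z)
      ≤ inner ℝ z (exp (-((κ / 2 - 2 * κ ^ 2) • LS π (X ∪ X.image φ))) z) := by
  by_cases hX : X = ∅
  · subst hX
    simp [LS_empty]
  have hcard : 1 ≤ Fintype.card X := by
    rw [Fintype.card_coe]
    exact Finset.card_pos.mpr (Finset.nonempty_iff_ne_empty.mpr hX)
  set N : ℝ := (X.card : ℝ) with hN
  have hNpos : 0 < N := by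
    have : (1 : ℝ) ≤ N := by
      rw [hN]
      rw [Fintype.card_coe] at hcard
      exact_mod_cast hcard
    linarith
  set t := κ * N with ht
  have h := two_sided_sector (π := resRep π hinj hd) (isOrth_resRep hπ) hcard (res_mem_sector π hz)
    (t := t) (by positivity) hκ
  rw [Lhat_res, Lhat_res_side, Lhat_res_side, LS_res_false, LS_res_true, Fintype.card_coe] at h
  have e1 : (-t) • (N⁻¹ • LS π X + N⁻¹ • LS π (X.image φ))
      = -(κ • LS π X + κ • LS π (X.image φ)) := by
    have : t * N⁻¹ = κ := by rw [ht]; field_simp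
    rw [smul_add, smul_smul, smul_smul, neg_mul, this]
    simp only [neg_smul, neg_add_rev]
    abel
  have e2 : (-(t - 4 * t ^ 2 / N)) • ((2 * N)⁻¹ • LS π (X ∪ X.image φ))
      = -((κ / 2 - 2 * κ ^ 2) • LS π (X ∪ X.image φ)) := by
    have : (t - 4 * t ^ 2 / N) * (2 * N)⁻¹ = κ / 2 - 2 * κ ^ 2 := by
      rw [ht]; field_simp; ring
    rw [smul_smul, neg_mul, this, neg_smul]
  rw [e1, e2] at h
  exact h

/-- The one-sided cover for a matching between subsets. -/
theorem cover_one (hπ : IsOrth π) (hinj : Set.InjOn φ X) (hd : Disjoint X (X.image φ)) {z : E}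
    (hz : ∀ x ∈ X, π (swap x (φ x)) z = z) {κ : ℝ} (hκ0 : 0 ≤ κ)
    (hκ : κ * (X.card : ℝ) ≤ 1 / 20) :
    inner ℝ z (exp (-(κ • LS π X + (0 : ℝ) • LS π (X.image φ))) z)
      ≤ inner ℝ z (exp (-((κ / 4 - κ ^ 2 - 60 * κ ^ 2 * (X.card : ℝ)) • LS π (X ∪ X.image φ))) z) := by
  by_cases hX : X = ∅
  · subst hX
    simp [LS_empty]
  have hcard : 1 ≤ Fintype.card X := by
    rw [Fintype.card_coe]
    exact Finset.card_pos.mpr (Finset.nonempty_iff_ne_empty.mpr hX)
  set N : ℝ := (X.card : ℝ) with hN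
  have hNpos : 0 < N := by
    have : (1 : ℝ) ≤ N := by
      rw [hN]
      rw [Fintype.card_coe] at hcard
      exact_mod_cast hcard
    linarith
  set t := κ * N with ht
  have h := one_sided_sector (π := resRep π hinj hd) (isOrth_resRep hπ) hcard (res_mem_sector π hz)
    (t := t) (by positivity) hκ
  rw [Lhat_res, Lhat_res_side, LS_res_false, Fintype.card_coe] at h
  have e1 : (-t) • (N⁻¹ • LS π X) = -(κ • LS π X + (0 : ℝ) • LS π (X.image φ)) := by
    have : t * N⁻¹ = κ := by rw [ht]; field_simp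
    rw [smul_smul, neg_mul, this]
    simp
  have e2 : (-(t / 2 - 2 * t ^ 2 / N - 120 * t ^ 2)) • ((2 * N)⁻¹ • LS π (X ∪ X.image φ))
      = -((κ / 4 - κ ^ 2 - 60 * κ ^ 2 * N) • LS π (X ∪ X.image φ)) := by
    have : (t / 2 - 2 * t ^ 2 / N - 120 * t ^ 2) * (2 * N)⁻¹ = κ / 4 - κ ^ 2 - 60 * κ ^ 2 * N := by
      rw [ht]; field_simp; ring
    rw [smul_smul, neg_mul, this, neg_smul]
  rw [e1, e2] at h
  exact h

end ineq

section mono

variable [CompleteSpace E] [FiniteDimensional ℝ E] {π : Perm P →* (E →L[ℝ] E)}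

/-- Dropping a commuting positive part, as quadratic forms. -/
theorem inner_exp_drop {H1 H2 : E →L[ℝ] E} (hs1 : SymOp H1) (hs2 : SymOp H2) (hp2 : PsdOp H2)
    (hc : Commute H1 H2) (w : E) :
    inner ℝ w (exp (-(H1 + H2)) w) ≤ inner ℝ w (exp (-H1) w) := by
  rw [inner_exp_add_split hs1 hc]
  rw [inner_exp_neg_self hs1]
  set v := exp ((-(1 / 2 : ℝ)) • H1) w
  have hW : ∀ u ∈ (⊤ : Submodule ℝ E), (0 : ℝ) * ‖u‖ ^ 2 ≤ inner ℝ u (H2 u) := by
    intro u _; simpa using hp2 u
  have h3 := exp_bound_of_rayleigh hs2 ⊤ (fun _ _ => Submodule.mem_top) 0 hW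
    (s := 1) (by norm_num) v Submodule.mem_top
  have h4 : (-1 : ℝ) • H2 = -H2 := by simp
  rw [h4] at h3
  simpa using h3

/-- Monotonicity of the exponential of the energy in the set and the coefficient. -/
theorem inner_exp_LS_mono (hπ : IsOrth π) {A B : Finset P} (h : A ⊆ B) {κ κ' : ℝ} (hκ' : 0 ≤ κ')
    (hκ : κ' ≤ κ) (z : E) :
    inner ℝ z (exp (-(κ • LS π B)) z) ≤ inner ℝ z (exp (-(κ' • LS π A)) z) := by
  set Q : E →L[ℝ] E := κ • LS π B - κ' • LS π A with hQ
  have hκ0 : 0 ≤ κ := hκ'.trans hκ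
  have hs1 : SymOp (κ' • LS π A) := (symOp_LS hπ _).smul _
  have hs2 : SymOp Q := ((symOp_LS hπ _).smul _).sub ((symOp_LS hπ _).smul _)
  have hp2 : PsdOp Q := by
    intro u
    have h1 := LS_mono_form hπ h u
    have h2 := psdOp_LS hπ B u
    have h3 := psdOp_LS hπ A u
    simp only [hQ, sub_apply, smul_apply, inner_sub_right, inner_smul_right]
    nlinarith
  have hc : Commute (κ' • LS π A) Q := by
    have hAB := commute_LS_subset (π := π) h
    exact ((hAB.smul_left _).smul_right _).sub_right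
      (((Commute.refl _).smul_left _).smul_right _)
  have h5 := inner_exp_drop hs1 hs2 hp2 hc z
  have h6 : κ' • LS π A + Q = κ • LS π B := by rw [hQ]; abel
  rwa [h6] at h5

/-- Monotonicity for commuting families of blocks. -/
theorem Maj.mono_family (hπ : IsOrth π) {R : E →L[ℝ] E} {ι : Type*} [DecidableEq ι] {s : Finset ι}
    {K D : ι → Finset P} {κ κ' : ℝ} (hκ' : 0 ≤ κ') (hκ : κ' ≤ κ)
    (hdisj : ∀ i ∈ s, ∀ j ∈ s, i ≠ j → Disjoint (K i) (K j))
    (hsub : ∀ i ∈ s, D i ⊆ K i)
    (h : Maj R (∑ i ∈ s, κ • LS π (K i))) : Maj R (∑ i ∈ s, κ' • LS π (D i)) := by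
  intro w
  refine (h w).trans ?_
  refine replace_all s (fun i => κ • LS π (K i)) (fun i => κ' • LS π (D i)) (fun _ => ∅)
    (fun i _ => (symOp_LS hπ _).smul _) (fun i _ => (symOp_LS hπ _).smul _) ?_ ?_ ?_ w ?_
  · intro i hi j hj hij
    have h1 := hdisj i hi j hj hij
    refine ⟨((commute_LS_disjoint h1).smul_left _).smul_right _, ?_, ?_⟩
    · exact ((commute_LS_disjoint (Finset.disjoint_of_subset_left (hsub i hi) h1)).smul_left _).smul_right _
    · exact ((commute_LS_disjoint (Finset.disjoint_of_subset_left (hsub i hi)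
        (Finset.disjoint_of_subset_right (hsub j hj) h1))).smul_left _).smul_right _
  · intro i _ j _ _ B hB
    exact absurd hB (Set.notMem_empty _)
  · intro i hi z _
    exact inner_exp_LS_mono hπ (hsub i hi) hκ' hκ z
  · intro i _ B hB
    exact absurd hB (Set.notMem_empty _)

/-- Restriction to a subfamily of blocks. -/
theorem Maj.subfamily (hπ : IsOrth π) {R : E →L[ℝ] E} {ι ι' : Type*} [DecidableEq ι] [DecidableEq ι']
    {s : Finset ι} {s' : Finset ι'} {K : ι → Finset P} {κ : ℝ} (hκ : 0 ≤ κ) (e : ι' → ι)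
    (he : Set.InjOn e s') (hes : ∀ i ∈ s', e i ∈ s)
    (hdisj : ∀ i ∈ s, ∀ j ∈ s, i ≠ j → Disjoint (K i) (K j))
    (h : Maj R (∑ i ∈ s, κ • LS π (K i))) : Maj R (∑ i ∈ s', κ • LS π (K (e i))) := by
  have h0 : (∑ i ∈ s', κ • LS π (K (e i))) = ∑ j ∈ s'.image e, κ • LS π (K j) :=
    by rw [Finset.sum_image he]
  rw [h0]
  have hsub : s'.image e ⊆ s := by
    intro j hj
    obtain ⟨i, hi, rfl⟩ := Finset.mem_image.mp hj
    exact hes i hi
  have hsplit : ∑ i ∈ s, κ • LS π (K i)
      = ∑ j ∈ s'.image e, κ • LS π (K j) + ∑ j ∈ s \ s'.image e, κ • LS π (K j) := by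
    rw [add_comm, Finset.sum_sdiff hsub]
  rw [hsplit] at h
  refine h.drop (SymOp.sum _ _ (fun i _ => (symOp_LS hπ _).smul _))
    (SymOp.sum _ _ (fun i _ => (symOp_LS hπ _).smul _))
    (PsdOp.sum _ _ (fun i _ => (psdOp_LS hπ _).smul hκ)) ?_
  refine Commute.sum_left _ _ _ (fun i hi => Commute.sum_right _ _ _ (fun j hj => ?_))
  have hi' := hsub hi
  have hj' := (Finset.mem_sdiff.mp hj).1
  have hne : i ≠ j := by
    rintro rfl
    exact (Finset.mem_sdiff.mp hj).2 hi
  exact ((commute_LS_disjoint (hdisj i hi' j hj' hne)).smul_left _).smul_right _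

end mono

end Vale.Agent.Lib.P162
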