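import Vale.Agent.Lib.P162A.Shuf

/-! One layer in the frame of the shuffle: the merge and cover steps for sets of positions, and
intervals of positions. The exact dyadic recursion on intervals. -/

namespace Vale.Agent.Lib.P162

open Equiv NormedSpace

set_option linter.unusedSectionVars false

variable {E : Type*} [NormedAddCommGroup E] [InnerProductSpace ℝ E]
variable {m : ℕ}

/-- A set of positions in the next frame together with its partners. -/
def wSet (S : Finset (Fin (2 * m))) : Finset (Fin (2 * m)) :=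
  S.image (pShuf m) ∪ (S.image (pShuf m)).image sigF

theorem mem_image_pShuf {S : Finset (Fin (2 * m))} {y : Fin (2 * m)} :
    y ∈ S.image (pShuf m) ↔ (pShuf m)⁻¹ y ∈ S := by
  rw [Finset.mem_image]
  constructor
  · rintro ⟨x, hx, rfl⟩
    simpa using hx
  · intro h
    exact ⟨_, h, by simp⟩

theorem mem_image_sigF {S : Finset (Fin (2 * m))} {y : Fin (2 * m)} :
    y ∈ S.image sigF ↔ sigF y ∈ S := by
  rw [Finset.mem_image]
  constructor
  · rintro ⟨x, hx, rfl⟩
    rwa [sigF_sigF]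
  · intro h
    exact ⟨_, h, sigF_sigF y⟩

theorem mem_wSet {S : Finset (Fin (2 * m))} {y : Fin (2 * m)} :
    y ∈ wSet S ↔ (pShuf m)⁻¹ y ∈ S ∨ (pShuf m)⁻¹ (sigF y) ∈ S := by
  unfold wSet
  rw [Finset.mem_union, mem_image_sigF, mem_image_pShuf, mem_image_pShuf]

theorem sigF_mem_wSet {S : Finset (Fin (2 * m))} {y : Fin (2 * m)} (hy : y ∈ wSet S) :
    sigF y ∈ wSet S := by
  rw [mem_wSet] at hy ⊢
  rw [sigF_sigF]
  tauto

/-- No two elements of the set are partners in the next layer. -/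
def NoConf (S : Finset (Fin (2 * m))) : Prop :=
  ∀ x ∈ S, (pShuf m)⁻¹ (sigF (pShuf m x)) ∉ S

theorem disjoint_of_noConf {S : Finset (Fin (2 * m))} (h : NoConf S) :
    Disjoint (S.image (pShuf m)) ((S.image (pShuf m)).image sigF) := by
  rw [Finset.disjoint_left]
  intro y hy hy2
  rw [mem_image_sigF, mem_image_pShuf] at hy2
  rw [mem_image_pShuf] at hy
  have := h _ hy
  have e : pShuf m ((pShuf m)⁻¹ y) = y := by simp
  rw [e] at this
  exact this hy2

section steps

variable [CompleteSpace E] [FiniteDimensional ℝ E] {π : Perm (Fin (2 * m)) →* (E →L[ℝ] E)}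

/-- The one-sided step through a layer. -/
theorem cover_step (hπ : IsOrth π) {R : E →L[ℝ] E} {ι : Type*} [DecidableEq ι] (s : Finset ι)
    (S : ι → Finset (Fin (2 * m))) {κ κ' : ℝ} (hκ : 0 ≤ κ) (hκ' : 0 ≤ κ')
    (hconf : ∀ i ∈ s, NoConf (S i))
    (hdisj : ∀ i ∈ s, ∀ j ∈ s, i ≠ j → Disjoint (wSet (S i)) (wSet (S j)))
    (hsize : ∀ i ∈ s, κ * ((S i).card : ℝ) ≤ 1 / 20)
    (hup : ∀ i ∈ s, κ' ≤ κ / 4 - κ ^ 2 - 60 * κ ^ 2 * ((S i).card : ℝ))
    (hM : Maj R (∑ i ∈ s, κ • LS (conjRep (pShuf m) π) (S i))) :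
    Maj (R * tAvg m π) (∑ i ∈ s, κ' • LS π (wSet (S i))) := by
  have hL := layer_tAvg hπ
  have hcard : ∀ i, ((S i).image (pShuf m)).card = (S i).card := fun i =>
    Finset.card_image_of_injective _ (pShuf m).injective
  refine level_step hπ hL s (fun i => (S i).image (pShuf m)) (a := κ) (c := 0) hdisj ?_ ?_ ?_
  · intro i _ x hx
    exact sigF_mem_wSet hx
  · intro i hi z hz
    have h1 := cover_one hπ (X := (S i).image (pShuf m)) (φ := sigF)
      (fun x _ y _ h => sigF_injective h) (disjoint_of_noConf (hconf i hi)) hz hκ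
      (by rw [hcard]; exact hsize i hi)
    refine h1.trans ?_
    rw [hcard]
    exact inner_exp_LS_mono hπ (Finset.Subset.refl _) hκ' (hup i hi) z
  · have : (∑ i ∈ s, (κ • LS π ((S i).image (pShuf m))
        + (0 : ℝ) • LS π (((S i).image (pShuf m)).image sigF)))
        = ∑ i ∈ s, κ • LS (conjRep (pShuf m) π) (S i) := by
      refine Finset.sum_congr rfl (fun i _ => ?_)
      rw [LS_conjRep]
      simp
    rw [this]
    exact hM

/-- The two-sided step through a layer. -/
theorem merge_step (hπ : IsOrth π) {R : E →L[ℝ] E} {ι : Type*} [DecidableEq ι] (s : Finset ι)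
    (S S' : ι → Finset (Fin (2 * m))) {κ κ' : ℝ} (hκ : 0 ≤ κ) (hκ' : 0 ≤ κ')
    (hconf : ∀ i ∈ s, NoConf (S i))
    (hmatch : ∀ i ∈ s, ((S i).image (pShuf m)).image sigF = (S' i).image (pShuf m))
    (hdisj : ∀ i ∈ s, ∀ j ∈ s, i ≠ j → Disjoint (wSet (S i)) (wSet (S j)))
    (hsize : ∀ i ∈ s, κ * ((S i).card : ℝ) ≤ 1 / 20)
    (hup : κ' ≤ κ / 2 - 2 * κ ^ 2)
    (hM : Maj R (∑ i ∈ s, (κ • LS (conjRep (pShuf m) π) (S i)
      + κ • LS (conjRep (pShuf m) π) (S' i)))) :
    Maj (R * tAvg m π) (∑ i ∈ s, κ' • LS π (wSet (S i))) := by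
  have hL := layer_tAvg hπ
  have hcard : ∀ i, ((S i).image (pShuf m)).card = (S i).card := fun i =>
    Finset.card_image_of_injective _ (pShuf m).injective
  refine level_step hπ hL s (fun i => (S i).image (pShuf m)) (a := κ) (c := κ) hdisj ?_ ?_ ?_
  · intro i _ x hx
    exact sigF_mem_wSet hx
  · intro i hi z hz
    have h1 := merge_two hπ (X := (S i).image (pShuf m)) (φ := sigF)
      (fun x _ y _ h => sigF_injective h) (disjoint_of_noConf (hconf i hi)) hz hκ
      (by rw [hcard]; exact hsize i hi)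
    refine h1.trans ?_
    exact inner_exp_LS_mono hπ (Finset.Subset.refl _) hκ' hup z
  · have : (∑ i ∈ s, (κ • LS π ((S i).image (pShuf m))
        + κ • LS π (((S i).image (pShuf m)).image sigF)))
        = ∑ i ∈ s, (κ • LS (conjRep (pShuf m) π) (S i) + κ • LS (conjRep (pShuf m) π) (S' i)) := by
      refine Finset.sum_congr rfl (fun i hi => ?_)
      rw [LS_conjRep, LS_conjRep, hmatch i hi]
    rw [this]
    exact hM

end steps

/-- The interval of positions `u ≤ x < u + L`. -/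
def ivl (m u L : ℕ) : Finset (Fin (2 * m)) :=
  Finset.univ.filter (fun x => u ≤ x.val ∧ x.val < u + L)

theorem mem_ivl {u L : ℕ} {x : Fin (2 * m)} : x ∈ ivl m u L ↔ u ≤ x.val ∧ x.val < u + L := by
  simp [ivl]

theorem card_ivl_le (u L : ℕ) : (ivl m u L).card ≤ L := by
  have h : (ivl m u L).card ≤ (Finset.range L).card := by
    refine Finset.card_le_card_of_injOn (fun x => x.val - u) ?_ ?_
    · intro x hx
      have := mem_ivl.mp hx
      simp only [Finset.coe_range, Set.mem_Iio]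
      omega
    · intro x hx y hy h
      have h1 := mem_ivl.mp hx
      have h2 := mem_ivl.mp hy
      simp only at h
      apply Fin.ext
      omega
  simpa using h

theorem pShuf_inv_sigF_val (x : Fin (2 * m)) :
    ((pShuf m)⁻¹ (sigF (pShuf m x))).val = if x.val < m then x.val + m else x.val - m := by
  rw [pShuf_inv_val, sigF_val, pShuf_val]
  have := x.isLt
  by_cases h : x.val < m
  · simp only [h, if_true]
    have h2 : (2 * x.val) % 2 = 0 := by omega
    simp only [h2, if_true]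
    have h3 : ¬ (2 * x.val + 1) % 2 = 0 := by omega
    simp only [h3, if_false]
    omega
  · simp only [h, if_false]
    have h2 : ¬ (2 * (x.val - m) + 1) % 2 = 0 := by omega
    simp only [h2, if_false]
    have h3 : (2 * (x.val - m) + 1 - 1) % 2 = 0 := by omega
    simp only [h3, if_true]
    omega

/-- Short intervals have no conflicts. -/
theorem noConf_ivl {u L : ℕ} (hL : L ≤ m) : NoConf (ivl m u L) := by
  intro x hx hx2
  rw [mem_ivl] at hx hx2
  rw [pShuf_inv_sigF_val] at hx2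
  split_ifs at hx2 <;> omega

/-- Membership in the image of a lower interval. -/
theorem mem_image_ivl_low {u L : ℕ} (h : u + L ≤ m) {y : Fin (2 * m)} :
    y ∈ (ivl m u L).image (pShuf m) ↔ y.val % 2 = 0 ∧ 2 * u ≤ y.val ∧ y.val < 2 * u + 2 * L := by
  rw [mem_image_pShuf, mem_ivl, pShuf_inv_val]
  have := y.isLt
  by_cases hy : y.val % 2 = 0
  · rw [if_pos hy]
    omega
  · rw [if_neg hy]
    omega

/-- Membership in the image of an upper interval. -/
theorem mem_image_ivl_up {u L : ℕ} (_h : u + L ≤ m) {y : Fin (2 * m)} :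
    y ∈ (ivl m (u + m) L).image (pShuf m)
      ↔ y.val % 2 = 1 ∧ 2 * u ≤ y.val ∧ y.val < 2 * u + 2 * L := by
  rw [mem_image_pShuf, mem_ivl, pShuf_inv_val]
  have := y.isLt
  by_cases hy : y.val % 2 = 0
  · rw [if_pos hy]
    omega
  · rw [if_neg hy]
    omega

theorem match_ivl {u L : ℕ} (h : u + L ≤ m) :
    ((ivl m u L).image (pShuf m)).image sigF = (ivl m (u + m) L).image (pShuf m) := by
  ext y
  rw [mem_image_sigF, mem_image_ivl_low h, mem_image_ivl_up h, sigF_val]
  by_cases hy : y.val % 2 = 0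
  · rw [if_pos hy]
    omega
  · rw [if_neg hy]
    omega

theorem match_ivl' {u L : ℕ} (h : u + L ≤ m) :
    ((ivl m (u + m) L).image (pShuf m)).image sigF = (ivl m u L).image (pShuf m) := by
  ext y
  rw [mem_image_sigF, mem_image_ivl_low h, mem_image_ivl_up h, sigF_val]
  by_cases hy : y.val % 2 = 0
  · rw [if_pos hy]
    omega
  · rw [if_neg hy]
    omega

theorem wSet_ivl_low {u L : ℕ} (h : u + L ≤ m) :
    wSet (ivl m u L) = ivl m (2 * u) (2 * L) := by
  ext y
  unfold wSet
  rw [Finset.mem_union, match_ivl h, mem_image_ivl_low h, mem_image_ivl_up h, mem_ivl]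
  omega

theorem wSet_ivl_up {u L : ℕ} (h : u + L ≤ m) :
    wSet (ivl m (u + m) L) = ivl m (2 * u) (2 * L) := by
  ext y
  unfold wSet
  rw [Finset.mem_union, match_ivl' h, mem_image_ivl_low h, mem_image_ivl_up h, mem_ivl]
  omega

/-- The coefficients of the exact recursion. -/
noncomputable def kapFr (c : ℝ) (i : ℕ) : ℝ := c * (1 / 2) ^ i * (1 + (1 / 2) ^ i)

theorem kapFr_nonneg {c : ℝ} (hc : 0 ≤ c) (i : ℕ) : 0 ≤ kapFr c i := by
  unfold kapFr
  positivity

theorem kap_step {c : ℝ} (hc0 : 0 ≤ c) (hc : c ≤ 1 / 32) (i : ℕ) :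
    kapFr c (i + 1) ≤ kapFr c i / 2 - 2 * kapFr c i ^ 2 := by
  unfold kapFr
  set h : ℝ := (1 / 2) ^ i with hh
  have h0 : 0 ≤ h := by positivity
  have h1 : h ≤ 1 := pow_le_one₀ (by norm_num) (by norm_num)
  rw [pow_succ, ← hh]
  have h2 : (1 + h) ^ 2 ≤ 4 := by nlinarith
  have h3 : 2 * (c * h * (1 + h)) ^ 2 = 2 * c ^ 2 * h ^ 2 * (1 + h) ^ 2 := by ring
  have h4 : 2 * c ^ 2 * h ^ 2 * (1 + h) ^ 2 ≤ 2 * c ^ 2 * h ^ 2 * 4 := by
    gcongr
  have h5 : 2 * c ^ 2 * h ^ 2 * 4 ≤ c * h ^ 2 / 4 := by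
    have : 0 ≤ c * h ^ 2 := by positivity
    nlinarith
  nlinarith

theorem kap_size {c : ℝ} (hc0 : 0 ≤ c) (i : ℕ) : kapFr c i * (2 : ℝ) ^ i ≤ 2 * c := by
  unfold kapFr
  have h1 : ((1 : ℝ) / 2) ^ i * (2 : ℝ) ^ i = 1 := by
    rw [← mul_pow]; norm_num
  have h2 : ((1 : ℝ) / 2) ^ i ≤ 1 := pow_le_one₀ (by norm_num) (by norm_num)
  calc c * (1 / 2) ^ i * (1 + (1 / 2) ^ i) * (2 : ℝ) ^ i
      = c * (((1 : ℝ) / 2) ^ i * (2 : ℝ) ^ i) * (1 + (1 / 2) ^ i) := by ring
    _ = c * (1 + (1 / 2) ^ i) := by rw [h1]; ring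
    _ ≤ 2 * c := by nlinarith

theorem kap_lower {c : ℝ} (hc0 : 0 ≤ c) (i : ℕ) : c * (1 / 2) ^ i ≤ kapFr c i := by
  unfold kapFr
  have h : (0 : ℝ) ≤ (1 / 2) ^ i := by positivity
  have h2 : 0 ≤ c * (1 / 2) ^ i := by positivity
  nlinarith

theorem LS_singleton {P : Type*} [DecidableEq P] (π : Perm P →* (E →L[ℝ] E)) (a : P) :
    LS π {a} = 0 := by
  unfold LS
  have : π (Equiv.refl P) = 1 := map_one π
  simp [this]

section stageA

variable [CompleteSpace E] [FiniteDimensional ℝ E]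

/-- The exact recursion on dyadic intervals, as long as the powers of two divide the size. -/
theorem stage_A {a : ℕ} (hm : 0 < m) (ha : 2 ^ a ∣ 2 * m) {c : ℝ} (hc0 : 0 ≤ c) (hc : c ≤ 1 / 40) :
    ∀ i ≤ a, ∀ π : Perm (Fin (2 * m)) →* (E →L[ℝ] E), IsOrth π →
      Maj (Net m i π) (∑ k ∈ Finset.range (2 * m / 2 ^ i), kapFr c i • LS π (ivl m (k * 2 ^ i) (2 ^ i))) := by
  intro i
  induction i with
  | zero =>
    intro _ π hπ w
    have h0 : ∀ k, LS π (ivl m (k * 2 ^ 0) (2 ^ 0)) = 0 := by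
      intro k
      by_cases hk : k < 2 * m
      · have : ivl m (k * 2 ^ 0) (2 ^ 0) = {⟨k, hk⟩} := by
          ext x
          rw [mem_ivl, Finset.mem_singleton, Fin.ext_iff]
          simp
          omega
        rw [this, LS_singleton]
      · have : ivl m (k * 2 ^ 0) (2 ^ 0) = ∅ := by
          ext x
          rw [mem_ivl]
          have := x.isLt
          simp
          omega
        rw [this, LS_empty]
    have hs : (∑ k ∈ Finset.range (2 * m / 2 ^ 0), kapFr c 0 • LS π (ivl m (k * 2 ^ 0) (2 ^ 0))) = 0 :=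
      Finset.sum_eq_zero (fun k _ => by rw [h0, smul_zero])
    rw [hs, Net_zero]
    simp [real_inner_self_eq_norm_sq]
  | succ i ih =>
    intro hi π hπ
    have hdvd : 2 ^ (i + 1) ∣ 2 * m := (pow_dvd_pow 2 hi).trans ha
    obtain ⟨M, hM⟩ := hdvd
    have hMpos : 0 < M := by
      rcases Nat.eq_zero_or_pos M with h | h
      · subst h
        omega
      · exact h
    have hpow : (2 : ℕ) ^ (i + 1) = 2 * 2 ^ i := by rw [pow_succ]; ring
    have hmM : m = M * 2 ^ i := by
      have : 2 * m = 2 * (M * 2 ^ i) := by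
        rw [hM, hpow]; ring
      omega
    have hdiv1 : 2 * m / 2 ^ i = M + M := by
      have h2pos : 0 < 2 ^ i := by positivity
      rw [hmM]
      have : 2 * (M * 2 ^ i) = (M + M) * 2 ^ i := by ring
      rw [this, Nat.mul_div_cancel _ h2pos]
    have hdiv2 : 2 * m / 2 ^ (i + 1) = M := by
      have h2pos : 0 < 2 ^ (i + 1) := by positivity
      rw [hM, Nat.mul_div_cancel_left _ h2pos]
    have h1 := ih (by omega) (conjRep (pShuf m) π) (isOrth_conjRep' _ hπ)
    rw [hdiv1, Finset.sum_range_add, ← Finset.sum_add_distrib] at h1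
    have hup : ∀ k, k < M → k * 2 ^ i + 2 ^ i ≤ m := by
      intro k hk
      rw [hmM]
      nlinarith [pow_pos (show 0 < 2 by norm_num) i]
    have hshift : ∀ k, (M + k) * 2 ^ i = k * 2 ^ i + m := by
      intro k
      rw [hmM]
      ring
    have hL : 2 ^ i ≤ m := by
      rw [hmM]
      exact Nat.le_mul_of_pos_left _ hMpos
    have hw : ∀ k ∈ Finset.range M, wSet (ivl m (k * 2 ^ i) (2 ^ i))
        = ivl m (k * 2 ^ (i + 1)) (2 ^ (i + 1)) := by
      intro k hk
      rw [wSet_ivl_low (hup k (Finset.mem_range.mp hk)), hpow]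
      congr 1
      ring
    have hdisjI : ∀ k ∈ Finset.range M, ∀ l ∈ Finset.range M, k ≠ l →
        Disjoint (ivl m (k * 2 ^ (i + 1)) (2 ^ (i + 1))) (ivl m (l * 2 ^ (i + 1)) (2 ^ (i + 1))) := by
      intro k _ l _ hkl
      rw [Finset.disjoint_left]
      intro x hx hx2
      rw [mem_ivl] at hx hx2
      have h2pos : 0 < 2 ^ (i + 1) := by positivity
      have e1 : x.val / 2 ^ (i + 1) = k := by
        apply Nat.div_eq_of_lt_le
        · linarith [hx.1]
        · have : (k + 1) * 2 ^ (i + 1) = k * 2 ^ (i + 1) + 2 ^ (i + 1) := by ring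
          omega
      have e2 : x.val / 2 ^ (i + 1) = l := by
        apply Nat.div_eq_of_lt_le
        · linarith [hx2.1]
        · have : (l + 1) * 2 ^ (i + 1) = l * 2 ^ (i + 1) + 2 ^ (i + 1) := by ring
          omega
      exact hkl (e1.symm.trans e2)
    have hstep := merge_step hπ (R := Net m i (conjRep (pShuf m) π)) (Finset.range M)
      (fun k => ivl m (k * 2 ^ i) (2 ^ i)) (fun k => ivl m (k * 2 ^ i + m) (2 ^ i))
      (κ := kapFr c i) (κ' := kapFr c (i + 1)) (kapFr_nonneg hc0 i) (kapFr_nonneg hc0 _)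
      (fun k _ => noConf_ivl hL)
      (fun k hk => match_ivl (hup k (Finset.mem_range.mp hk)))
      (by
        intro k hk l hl hkl
        rw [hw k hk, hw l hl]
        exact hdisjI k hk l hl hkl)
      (by
        intro k _
        have h2 := kap_size hc0 i
        have h3 : ((ivl m (k * 2 ^ i) (2 ^ i)).card : ℝ) ≤ (2 : ℝ) ^ i := by
          have := card_ivl_le (m := m) (k * 2 ^ i) (2 ^ i)
          exact_mod_cast this
        calc _ ≤ kapFr c i * (2 : ℝ) ^ i :=
              mul_le_mul_of_nonneg_left h3 (kapFr_nonneg hc0 i)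
          _ ≤ 2 * c := h2
          _ ≤ _ := by linarith)
      (kap_step hc0 (by linarith) i)
      (by
        convert h1 using 3 with k _
        rw [hshift])
    rw [Net_succ, hdiv2]
    have h3 : (∑ k ∈ Finset.range M, kapFr c (i + 1) • LS π (ivl m (k * 2 ^ (i + 1)) (2 ^ (i + 1))))
        = ∑ k ∈ Finset.range M, kapFr c (i + 1) • LS π (wSet (ivl m (k * 2 ^ i) (2 ^ i))) :=
      Finset.sum_congr rfl (fun k hk => by rw [hw k hk])
    rw [h3]
    exact hstep

end stageA

end Vale.Agent.Lib.P162
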